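import Vale.Agent.P372.Example

open Vale.Agent.P372

theorem Vale.Agent.Results.P372.A_full.result :
    ∃ (a b : ℕ) (ρ : Matrix (Fin a × Fin b) (Fin a × Fin b) ℂ),
      IsState ρ ∧ ¬ IsSeparable ρ ∧
      (∃ (e : ℕ) (ψ : (Fin a × Fin b) × Fin e → ℂ), traceRight (pureState ψ) = ρ) ∧
      ∀ (e : ℕ) (ψ : (Fin a × Fin b) × Fin e → ℂ), traceRight (pureState ψ) = ρ →
        keyRate ψ = 0 :=
  Vale.Agent.P372.main
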